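import Mathlib
import Vale.Agent.P252.Defs
import Vale.Agent.P252.GReduceAM
import Vale.Agent.P252.AffDefs
import Vale.Agent.P252.GGlueB
import Vale.Agent.P252.GAffine

open Finset Matrix
open scoped ContDiff

namespace Vale.Agent.Results.P252.A00_AllDimsComplete

open Vale.Agent.P252 Vale.Agent.P252.Gen

lemma not_quadratic {m : ℕ} {μ δ : ℝ} {φ p q q' : ℝ → ℝ} (h : ProfileG μ δ φ p q q') :
    ¬ ∃ (A : Matrix (Fin (m+1)) (Fin (m+1)) ℝ) (b : Fin (m+1) → ℝ) (c : ℝ),
      ∀ x : EuclideanSpace ℝ (Fin (m+1)),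
      uf φ x = (1/2) * ∑ i, ∑ j, A i j * x i * x j + ∑ i, b i * x i + c := by
  rintro ⟨A, b, c, hq⟩
  have h0 : 0 < φ 0 := h.φpos 0 (by have := h.hδ; linarith)
  have hline : ∀ τ : ℝ, Real.sqrt (φ 0 + τ^2)
      = (1/2) * A (Fin.last m) (Fin.last m) * τ^2 + b (Fin.last m) * τ + c := by
    intro τ
    have := hq (EuclideanSpace.single (Fin.last m) τ)
    have hrad : rad (m := m) (EuclideanSpace.single (Fin.last m) τ) = 0 := by
      unfold rad
      apply Finset.sum_eq_zero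
      intro i _
      have hne : (Fin.castSucc i : Fin (m+1)) ≠ Fin.last m := (Fin.castSucc_lt_last i).ne
      rw [PiLp.single_apply, if_neg hne]
      norm_num
    have hlst : lst (m := m) (EuclideanSpace.single (Fin.last m) τ) = τ := by
      simp [lst]
    unfold uf Uf at this
    rw [hrad, hlst] at this
    rw [this]
    simp only [PiLp.single_apply, mul_ite, mul_zero, ite_mul, zero_mul,
      Finset.sum_ite_eq', Finset.mem_univ, if_true]
    ring
  set α := (1/2) * A (Fin.last m) (Fin.last m) with hα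
  set β := b (Fin.last m) with hβ
  have sq : ∀ τ : ℝ, (α * τ^2 + β * τ + c)^2 = φ 0 + τ^2 ∧ 0 < α * τ^2 + β * τ + c := by
    intro τ
    rw [← hline τ]
    constructor
    · exact Real.sq_sqrt (by positivity)
    · exact Real.sqrt_pos.mpr (by positivity)
  obtain ⟨e0, p0⟩ := sq 0
  obtain ⟨e1, p1⟩ := sq 1
  obtain ⟨e2, p2⟩ := sq (-1)
  obtain ⟨e3, p3⟩ := sq 2
  have hb : β = 0 := by
    have : (α * 1^2 + β * 1 + c)^2 = (α * (-1)^2 + β * (-1) + c)^2 := by rw [e1, e2]; norm_num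
    have h3 := (pow_left_inj₀ p1.le p2.le (by norm_num)).mp this
    linarith
  rw [hb] at e0 e1 e3
  have hα0 : α = 0 := by nlinarith
  rw [hα0] at e0 e1
  nlinarith

/-- The affine Bernstein conjecture fails in every dimension `n ≥ 10`, by entire graphs that are
moreover affine complete. -/
theorem result : ∀ n : ℕ, 10 ≤ n → ∃ u : EuclideanSpace ℝ (Fin n) → ℝ, ContDiff ℝ ∞ u ∧
    (∀ x, (hess u x).PosDef) ∧ AffineMaximalOn Set.univ u ∧ AffineCompleteEntire u ∧
    ¬ ∃ (A : Matrix (Fin n) (Fin n) ℝ) (b : Fin n → ℝ) (c : ℝ), ∀ x,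
      u x = (1/2) * ∑ i, ∑ j, A i j * x i * x j + ∑ i, b i * x i + c := by
  intro n hn
  obtain ⟨m, rfl⟩ : ∃ m, n = m + 1 := ⟨n - 1, by omega⟩
  have hm : 9 ≤ m := by omega
  obtain ⟨δ, φ, p, q, q', r₀, Pl, pmax, h, hb⟩ :=
    exists_profile_gen_bounds (m:ℝ) (by exact_mod_cast hm)
  exact ⟨uf φ, contDiff_uf h, posDef_hess_uf h, am_uf (by omega) h,
    affineComplete_uf (by omega) h hb, not_quadratic h⟩

end Vale.Agent.Results.P252.A00_AllDimsComplete
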