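import Mathlib
import Vale.Agent.P252.Defs
import Vale.Agent.P252.Basic

open Finset Matrix
open scoped ContDiff

namespace Vale.Agent.Results.P252.Separable

open Vale.Agent.P252

lemma hess_sum {n : ℕ} (f : Fin n → ℝ → ℝ) (x : E n) :
    hess (fun y : E n => ∑ k, f k (y k)) x = diagonal (fun i => deriv (deriv (f i)) (x i)) := by
  ext i j
  unfold hess
  simp only [of_apply]
  have h1 : (fun y : E n => lineDeriv ℝ (fun y : E n => ∑ k, f k (y k)) y (e j))
      = fun y => deriv (f j) (y j) := by
    funext y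
    exact lineDeriv_sum f y j
  have h2 := lineDeriv_coord (deriv (f j)) x i j
  change lineDeriv ℝ (fun y : E n => lineDeriv ℝ (fun y : E n => ∑ k, f k (y k)) y (e j)) x (e i) = _
  rw [h1, h2]
  by_cases h : i = j
  · subst h; simp
  · simp [h]

lemma hess_prod_diag {n : ℕ} (g : Fin n → ℝ → ℝ) (x : E n) (i : Fin n) :
    hess (fun y : E n => ∏ k, g k (y k)) x i i
      = deriv (deriv (g i)) (x i) * ∏ k ∈ univ.erase i, g k (x k) := by
  unfold hess
  simp only [of_apply]
  have h1 : (fun y : E n => lineDeriv ℝ (fun y : E n => ∏ k, g k (y k)) y (e i))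
      = fun y => deriv (g i) (y i) * ∏ k ∈ univ.erase i, g k (y k) := by
    funext y
    exact lineDeriv_prod g y i
  change lineDeriv ℝ (fun y : E n => lineDeriv ℝ (fun y : E n => ∏ k, g k (y k)) y (e i)) x (e i) = _
  rw [h1, lineDeriv_mul_prod]

/-- Affine Bernstein property for additively separable entire graphs, in every dimension. -/
theorem result (n : ℕ) (u : EuclideanSpace ℝ (Fin n) → ℝ) (hu : ContDiff ℝ ∞ u)
    (hpos : ∀ x, (hess u x).PosDef) (hAM : AffineMaximalOn Set.univ u)
    (hsep : ∃ f : Fin n → ℝ → ℝ, ∀ x, u x = ∑ i, f i (x i)) :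
    ∃ (A : Matrix (Fin n) (Fin n) ℝ) (b : Fin n → ℝ) (c : ℝ), A.PosDef ∧
      ∀ x, u x = (1/2) * ∑ i, ∑ j, A i j * x i * x j + ∑ i, b i * x i + c := by
  obtain ⟨f, hf⟩ := hsep
  have hu' : u = fun y : E n => ∑ k, f k (y k) := funext hf
  -- smoothness of the summands
  have hfs : ∀ i, ContDiff ℝ ∞ (f i) := by
    intro i
    have h1 : ∀ s : ℝ, f i s = u (s • e i) - ∑ k ∈ univ.erase i, f k 0 := by
      intro s
      rw [hf, ← add_sum_erase univ _ (mem_univ i)]
      have : ∑ k ∈ univ.erase i, f k ((s • e i : E n) k) = ∑ k ∈ univ.erase i, f k 0 := by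
        apply sum_congr rfl
        intro k hk
        have := add_smul_e_apply (0 : E n) s i k
        rw [zero_add, if_neg (ne_of_mem_erase hk)] at this
        rw [this]; simp
      rw [this]
      have h2 := add_smul_e_apply (0 : E n) s i i
      rw [zero_add, if_pos rfl] at h2
      rw [h2]; simp
    have h2 : f i = fun s => u (s • e i) - ∑ k ∈ univ.erase i, f k 0 := funext h1
    rw [h2]
    apply ContDiff.sub _ contDiff_const
    exact hu.comp (contDiff_id.smul contDiff_const)
  have hcoord : ∀ (s : ℝ) (i k : Fin n), (s • e i : E n) k = if k = i then s else 0 := by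
    intro s i k
    have := add_smul_e_apply (0 : E n) s i k
    rw [zero_add] at this
    rw [this]; simp
  set d2 : Fin n → ℝ → ℝ := fun i => deriv (deriv (f i)) with hd2
  have hd2s : ∀ i, ContDiff ℝ ∞ (d2 i) := fun i => (hfs i).iterate_deriv 2
  have hH : ∀ x, hess u x = diagonal (fun i => d2 i (x i)) := by
    intro x; rw [hu']; exact hess_sum f x
  have hd2pos : ∀ i s, 0 < d2 i s := by
    intro i s
    have := hpos (s • e i)
    rw [hH, posDef_diagonal_iff] at this
    have h := this i
    rwa [hcoord, if_pos rfl] at h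
  set θ : ℝ := -((n:ℝ) + 1) / ((n:ℝ) + 2) with hθ
  have hθne : θ ≠ 0 := by
    rw [hθ]
    have h1 : (0:ℝ) < (n:ℝ) + 1 := by positivity
    have h2 : (0:ℝ) < (n:ℝ) + 2 := by positivity
    apply div_ne_zero <;> linarith
  set g : Fin n → ℝ → ℝ := fun i s => (d2 i s) ^ θ with hg
  have hw : wfun u = fun y : E n => ∏ k, g k (y k) := by
    funext y
    unfold wfun
    rw [hH, det_diagonal, ← Real.finsetProd_rpow _ _ (fun i _ => (hd2pos i _).le)]
  have hgs : ∀ i, ContDiff ℝ ∞ (g i) :=
    fun i => (hd2s i).rpow_const_of_ne (fun s => (hd2pos i s).ne')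
  have hgpos : ∀ i s, 0 < g i s := fun i s => Real.rpow_pos_of_pos (hd2pos i s) _
  have hEq : ∀ x : E n, ∑ i, (∏ k ∈ univ.erase i, d2 k (x k)) *
      (deriv (deriv (g i)) (x i) * ∏ k ∈ univ.erase i, g k (x k)) = 0 := by
    intro x
    have h := hAM x (Set.mem_univ x)
    have hdet : (hess u x).det ≠ 0 := (hpos x).det_pos.ne'
    have hadj : (hess u x).det • (hess u x)⁻¹ = (hess u x).adjugate := by
      rw [Matrix.inv_def, Ring.inverse_eq_inv', smul_smul, mul_inv_cancel₀ hdet, one_smul]
    rw [hadj, hH, adjugate_diagonal, hw] at h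
    simp only [diagonal_apply, ite_mul, zero_mul, sum_ite_eq, mem_univ, if_true,
      hess_prod_diag] at h
    exact h
  set h : Fin n → ℝ → ℝ := fun i s => deriv (deriv (g i)) s / (d2 i s * g i s) with hh
  have hsum : ∀ x : E n, ∑ i, h i (x i) = 0 := by
    intro x
    have h1 := hEq x
    have hP1 : 0 < ∏ k, d2 k (x k) := prod_pos (fun k _ => hd2pos k _)
    have hP2 : 0 < ∏ k, g k (x k) := prod_pos (fun k _ => hgpos k _)
    have h2 : ∑ i, (∏ k ∈ univ.erase i, d2 k (x k)) *
        (deriv (deriv (g i)) (x i) * ∏ k ∈ univ.erase i, g k (x k))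
        = ((∏ k, d2 k (x k)) * ∏ k, g k (x k)) * ∑ i, h i (x i) := by
      rw [mul_sum]
      apply sum_congr rfl
      intro i _
      rw [← mul_prod_erase univ (fun k => d2 k (x k)) (mem_univ i),
        ← mul_prod_erase univ (fun k => g k (x k)) (mem_univ i)]
      simp only [hh]
      have a1 := (hd2pos i (x i)).ne'
      have a2 := (hgpos i (x i)).ne'
      field_simp
    rw [h2] at h1
    rcases mul_eq_zero.mp h1 with h3 | h3
    · exact absurd h3 (mul_pos hP1 hP2).ne'
    · exact h3
  have hconst : ∀ i s, h i s = h i 0 := by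
    intro i s
    have h1 := hsum (s • e i)
    have h2 := hsum ((0:ℝ) • e i)
    rw [← add_sum_erase univ _ (mem_univ i)] at h1 h2
    have h3 : ∑ k ∈ univ.erase i, h k ((s • e i : E n) k)
        = ∑ k ∈ univ.erase i, h k (((0:ℝ) • e i : E n) k) := by
      apply sum_congr rfl
      intro k hk
      rw [hcoord, hcoord, if_neg (ne_of_mem_erase hk), if_neg (ne_of_mem_erase hk)]
    rw [hcoord, if_pos rfl] at h1 h2
    linarith
  have hc0 : ∑ i, h i 0 = 0 := by
    have := hsum 0
    simpa using this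
  have hg2 : ∀ i s, deriv (deriv (g i)) s = h i 0 * (d2 i s * g i s) := by
    intro i s
    rw [← hconst i s]
    simp only [hh]
    have a1 := (hd2pos i s).ne'
    have a2 := (hgpos i s).ne'
    field_simp
  have hgd : ∀ i, Differentiable ℝ (g i) := fun i => (hgs i).differentiable (by simp)
  have hgd' : ∀ i, Differentiable ℝ (deriv (g i)) := fun i =>
    ((hgs i).iterate_deriv 1).differentiable (by simp)
  have hcnonneg : ∀ i, 0 ≤ h i 0 := by
    intro i
    by_contra hneg
    have hneg' : h i 0 < 0 := not_le.mp hneg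
    have h1 : ∀ s, deriv (deriv (g i)) s ≤ 0 := by
      intro s
      rw [hg2]
      exact (mul_neg_of_neg_of_pos hneg' (mul_pos (hd2pos i s) (hgpos i s))).le
    have h2 := deriv_eq_zero_of_pos_of_deriv2_nonpos (g i) (hgd i) (hgd' i) (hgpos i) h1
    have h3 : deriv (g i) = fun _ => 0 := funext h2
    have h4 := hg2 i 0
    rw [h3] at h4
    simp only [deriv_const] at h4
    have := mul_neg_of_neg_of_pos hneg' (mul_pos (hd2pos i 0) (hgpos i 0))
    linarith
  have hczero : ∀ i, h i 0 = 0 := by
    intro i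
    exact (sum_eq_zero_iff_of_nonneg (fun i _ => hcnonneg i)).mp hc0 i (mem_univ i)
  have hgconst : ∀ i s, g i s = g i 0 := by
    intro i s
    have h1 : ∀ s, deriv (deriv (g i)) s ≤ 0 := by
      intro s; rw [hg2, hczero]; simp
    have h2 := deriv_eq_zero_of_pos_of_deriv2_nonpos (g i) (hgd i) (hgd' i) (hgpos i) h1
    exact is_const_of_deriv_eq_zero (hgd i) h2 s 0
  have hd2const : ∀ i s, d2 i s = d2 i 0 := by
    intro i s
    have h1 := hgconst i s
    simp only [hg] at h1
    exact (Real.rpow_left_inj (hd2pos i s).le (hd2pos i 0).le hθne).mp h1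
  have hfd : ∀ i, Differentiable ℝ (f i) := fun i => (hfs i).differentiable (by simp)
  have hfd' : ∀ i, Differentiable ℝ (deriv (f i)) := fun i =>
    ((hfs i).iterate_deriv 1).differentiable (by simp)
  have hquad : ∀ i s, f i s = (1/2) * d2 i 0 * s^2 + deriv (f i) 0 * s + f i 0 :=
    fun i => quadratic_of_deriv2_const (f i) (hfd i) (hfd' i) (d2 i 0) (hd2const i)
  refine ⟨diagonal (fun i => d2 i 0), fun i => deriv (f i) 0, ∑ i, f i 0, ?_, ?_⟩
  · rw [posDef_diagonal_iff]
    exact fun i => hd2pos i 0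
  · intro x
    rw [hf]
    simp only [diagonal_apply, ite_mul, zero_mul, sum_ite_eq, mem_univ, if_true]
    rw [mul_sum, ← sum_add_distrib, ← sum_add_distrib]
    apply sum_congr rfl
    intro i _
    rw [hquad i (x i)]
    ring

end Vale.Agent.Results.P252.Separable
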