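import Mathlib
import Vale.Agent.P252.Defs
import Vale.Agent.P252.AffDefs
import Vale.Agent.Results.P252.A00_AllDimsComplete
import Vale.Agent.Results.P252.Separable

open Finset Matrix
open scoped ContDiff

namespace Vale.Agent.Results.P252.A000_Combined

open Vale.Agent.P252

/-- (1) In every dimension `n ≥ 10` there is a smooth, locally uniformly convex, entire, affine complete,
non-quadratic solution of the affine maximal equation.  (2) In every dimension, an entire smooth locally
uniformly convex solution that is additively separable is a quadratic polynomial with positive definite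
matrix. -/
theorem result :
    (∀ n : ℕ, 10 ≤ n → ∃ u : EuclideanSpace ℝ (Fin n) → ℝ, ContDiff ℝ ∞ u ∧
      (∀ x, (hess u x).PosDef) ∧ AffineMaximalOn Set.univ u ∧ AffineCompleteEntire u ∧
      ¬ ∃ (A : Matrix (Fin n) (Fin n) ℝ) (b : Fin n → ℝ) (c : ℝ), ∀ x,
        u x = (1/2) * ∑ i, ∑ j, A i j * x i * x j + ∑ i, b i * x i + c) ∧
    (∀ (n : ℕ) (u : EuclideanSpace ℝ (Fin n) → ℝ), ContDiff ℝ ∞ u →
      (∀ x, (hess u x).PosDef) → AffineMaximalOn Set.univ u →
      (∃ f : Fin n → ℝ → ℝ, ∀ x, u x = ∑ i, f i (x i)) →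
      ∃ (A : Matrix (Fin n) (Fin n) ℝ) (b : Fin n → ℝ) (c : ℝ), A.PosDef ∧
        ∀ x, u x = (1/2) * ∑ i, ∑ j, A i j * x i * x j + ∑ i, b i * x i + c) :=
  ⟨Vale.Agent.Results.P252.A00_AllDimsComplete.result,
   fun n u hu hpos hAM hsep => Vale.Agent.Results.P252.Separable.result n u hu hpos hAM hsep⟩

end Vale.Agent.Results.P252.A000_Combined
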