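import Mathlib
import Vale.Agent.P252.Defs
import Vale.Agent.P252.ReduceAM
import Vale.Agent.P252.Glue

open Finset Matrix
open scoped ContDiff

namespace Vale.Agent.Results.P252.A0_Counterexample

open Vale.Agent.P252

lemma not_quadratic {δ : ℝ} {φ p q q' : ℝ → ℝ} (h : Profile δ φ p q q') :
    ¬ ∃ (A : Matrix (Fin 11) (Fin 11) ℝ) (b : Fin 11 → ℝ) (c : ℝ), ∀ x : EuclideanSpace ℝ (Fin 11),
      uf φ x = (1/2) * ∑ i, ∑ j, A i j * x i * x j + ∑ i, b i * x i + c := by
  rintro ⟨A, b, c, hq⟩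
  have h0 : 0 < φ 0 := h.φpos 0 (by have := h.hδ; linarith)
  -- restriction to the last axis
  have hline : ∀ τ : ℝ, Real.sqrt (φ 0 + τ^2)
      = (1/2) * A (Fin.last 10) (Fin.last 10) * τ^2 + b (Fin.last 10) * τ + c := by
    intro τ
    have := hq (EuclideanSpace.single (Fin.last 10) τ)
    have hrad : rad (m := 10) (EuclideanSpace.single (Fin.last 10) τ) = 0 := by
      unfold rad
      apply Finset.sum_eq_zero
      intro i _
      have hne : (Fin.castSucc i : Fin (10+1)) ≠ Fin.last 10 := (Fin.castSucc_lt_last i).ne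
      rw [PiLp.single_apply, if_neg hne]
      norm_num
    have hlst : lst (m := 10) (EuclideanSpace.single (Fin.last 10) τ) = τ := by
      simp [lst]
    unfold uf Uf at this
    rw [hrad, hlst] at this
    rw [this]
    simp only [PiLp.single_apply, mul_ite, mul_zero, ite_mul, zero_mul,
      Finset.sum_ite_eq', Finset.mem_univ, if_true]
    ring
  set α := (1/2) * A (Fin.last 10) (Fin.last 10) with hα
  set β := b (Fin.last 10) with hβ
  have sq : ∀ τ : ℝ, (α * τ^2 + β * τ + c)^2 = φ 0 + τ^2 ∧ 0 < α * τ^2 + β * τ + c := by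
    intro τ
    rw [← hline τ]
    constructor
    · exact Real.sq_sqrt (by positivity)
    · exact Real.sqrt_pos.mpr (by positivity)
  obtain ⟨e0, p0⟩ := sq 0
  obtain ⟨e1, p1⟩ := sq 1
  obtain ⟨e2, p2⟩ := sq (-1)
  obtain ⟨e3, p3⟩ := sq 2
  have hb : β = 0 := by
    have : (α * 1^2 + β * 1 + c)^2 = (α * (-1)^2 + β * (-1) + c)^2 := by rw [e1, e2]; norm_num
    have h3 := (pow_left_inj₀ p1.le p2.le (by norm_num)).mp this
    linarith
  rw [hb] at e0 e1 e3
  have hα0 : α = 0 := by nlinarith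
  rw [hα0] at e0 e1
  nlinarith

/-- Chern's affine Bernstein conjecture fails in dimension 11. -/
theorem result : ∃ u : EuclideanSpace ℝ (Fin 11) → ℝ, ContDiff ℝ ∞ u ∧
    (∀ x, (hess u x).PosDef) ∧ AffineMaximalOn Set.univ u ∧
    ¬ ∃ (A : Matrix (Fin 11) (Fin 11) ℝ) (b : Fin 11 → ℝ) (c : ℝ), ∀ x,
      u x = (1/2) * ∑ i, ∑ j, A i j * x i * x j + ∑ i, b i * x i + c := by
  obtain ⟨δ, φ, p, q, q', h⟩ := exists_profile
  exact ⟨uf φ, contDiff_uf h, posDef_hess_uf h, am_uf h, not_quadratic h⟩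

end Vale.Agent.Results.P252.A0_Counterexample
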